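import Vale.Agent.P258.R2.H863.Spec

/-!
A model of `GL(2,3)` on the numbers `0, ..., 47` (`0` is the unit matrix, `1` is minus the unit
matrix), with multiplication read off from a table.
-/

namespace Vale.Agent.P258.R2.H785

def tabMul : ℕ := 671510357012465797606450353708998772195116537392639073791775198863737600321044991733880168199227893720063775274518131231209009571097132767070006341880176367453330834027445934786709624861665518428255490419618396992109792043919217896441161060278771834650482749547270887724419175462423589779256954469107856422248299608440735525787443967974918185804323793479494575076776494430977802610296431175675628111856376607958447511681053226746960743721376986118647878590454235451182481144339806519802882956515828695759592507807374315449453756188292236319963858435242493827490789445265470378700211734678389839003561418391347986562612658893701366975627678605646489402425447897542325522493885349510401329053809827159715028414386868489338020828927523531862627536679327766319390778308081142529248980070652418176124441742033316142729907323568867472624593684026351902236584399191757776584431033029034349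636891504529471982290386106395506149876891032430172665200339397688981557093978069769772534312322130198355112776623204248116006417670302389817880443365904414711249113456947460797442186428922214021206743666418515889641873336076970285615299739540112482092276722727715875640684876014541427786438392268456822700596750140264066635648103297350957804344910365636140521124618331763924914046632482553514412103173020942563923137171400171203888736611383789281747855757043623116322260743032177131988633276773626655621163898836386913143152511434895660757834206445618319049342262243087938594682964158658127870168789411394971027322246340673935211213431155756541759571639701177118251047790163564792636974045429797683331349557369901423641310361339402142612257088898386915166311764574448882485183215632810465006569412894354806468168477303951264440178680434079862919888340833721787123926825387482365246074328339286693402673442374415550949967468036887262832610845368724885102336131349530957845647230825863222595495388241102496106044405071617154058123993777681564912568173423962808011480215731048802387455041890653334297594774831469933727593824975572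320572869556807012554765516773288147577297726188134146560872844020321567138409015232057969134107621308402983556532104063637730959982602440541447636571833396146145874657635466121815137105095525201100165135607585915628921920554598148908832747817129430915429176695859048937221016083112428242096719181688470152798799310259670534585481809118079691880833241266892475040495954699824150590638713050757617956084289180123860782027039571074351787339161487577873543551895932051993857118400914114566424843839153733402012955502091596950458472235794445481589738904958289992402781548652147355431949155453770709422415161988082628442373970453584577724698597550687540026500211935161926906182597330549275562867857852118197888250035566978260483994172059452984604976133509044559286194273213572596148600396574985395119081711893636409227071423134524227654578032286967155977210455989330317132236968311282609920084423765879086870803681924581891358312640588056485617531641775173566925585123113674622490552803445826796426434365362310045363895749786540003669170358577203273737325976398338858052175287067392043254105377091658336386117974010903564177222419672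74520233905232427895001246946173140698073975295211693697779371127765976302438051177826616378015512339055965896850967861130777364464787013035976063737236983798697817019244349311837748932889880986570516259622437897154280625779237537284979960755876385205737319894995551607513749612431060199186666028523421496352446696301135523367506484184438562486432517263469516718966822205457832030597013151456770711723366486875581519435666521121000977652236275041692095543088261107746568899501013528725192296504533249390042507708984072666500169564875467200989419838580969101877039962903541039158646631857546950954476317653129878289458840873998315999725610201715007414493597643023295891640351088584218321846832371502995558498300640560129461828877571905198767576411680255090952445038635881989591472231965340728526121929459678862591963268865360284958698172770802682085679997763076041059652862019730988631163425467008698832199894206154645564717761033906467272993504059515485959946782920122689710107267186899734490368971403872069548336546062400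

def tabInv : ℕ := 172465208980894982324211629307408563956574327091097766702372066929936447570695201235008

def tabAct : ℕ := 39552462357750152549635813595982211294719350068590778012908373772466346777653156816521187652713931417852787881570701404115173092725315904146638783255991720540727979049373346641914184429709929484089088416599035968277627512563816577643408550762927690655888148161146868330962093648393833125644667929935019078652910467337796773974945217018343332693640

def tabPr : ℕ := 12074015682934219438633295579791264275556398315549424807267633490480495233546197564844896763163986972219585675257060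

def tabDet : ℕ := 112518298433564

def tabC : ℕ := 37383934316552

def mulN (a b : ℕ) : ℕ := (tabMul >>> (6 * (48 * a + b))) % 64

def invN (a : ℕ) : ℕ := (tabInv >>> (6 * a)) % 64

/-- the action on the eight nonzero vectors -/
def actN (a i : ℕ) : ℕ := (tabAct >>> (3 * (8 * a + i))) % 8

/-- the action on the four lines -/
def prN (a i : ℕ) : ℕ := (tabPr >>> (2 * (4 * a + i))) % 4

/-- `1` if the determinant is `-1` -/
def detN (a : ℕ) : ℕ := (tabDet >>> a) % 2

/-- `1` for the elements of one of the two classes of elements of order eight -/
def cN (a : ℕ) : ℕ := (tabC >>> a) % 2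

theorem chk_mul_lt : ((List.range 48).all fun a => (List.range 48).all fun b =>
    Nat.blt (mulN a b) 48) = true := by decide +kernel

theorem chk_act : ((List.range 48).all fun a => (List.range 48).all fun b =>
    (List.range 8).all fun i => Nat.beq (actN (mulN a b) i) (actN a (actN b i))) = true := by
  decide +kernel

theorem chk_act_lt : ((List.range 48).all fun a => (List.range 8).all fun i =>
    Nat.blt (actN a i) 8) = true := by decide +kernel

theorem chk_inj : ((List.range 48).all fun a => (List.range 48).all fun b =>
    Nat.beq a b || !((List.range 8).all fun i => Nat.beq (actN a i) (actN b i))) = true := by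
  decide +kernel

theorem chk_one : ((List.range 48).all fun a =>
    Nat.beq (mulN 0 a) a && Nat.beq (mulN a 0) a) = true := by decide +kernel

theorem chk_inv : ((List.range 48).all fun a =>
    Nat.blt (invN a) 48 && Nat.beq (mulN (invN a) a) 0) = true := by decide +kernel

theorem chk_pr : ((List.range 48).all fun a => (List.range 48).all fun b =>
    (List.range 4).all fun i => Nat.beq (prN (mulN a b) i) (prN a (prN b i))) = true := by
  decide +kernel

theorem chk_pr_one : ((List.range 4).all fun i => Nat.beq (prN 0 i) i && Nat.beq (prN 1 i) i) =
    true := by decide +kernel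

theorem chk_pr_inj : ((List.range 48).all fun a => (List.range 48).all fun b =>
    (Nat.beq b a || Nat.beq b (mulN a 1)) ||
      !((List.range 4).all fun i => Nat.beq (prN a i) (prN b i))) = true := by
  decide +kernel

/-- all the injective maps `i ↦ (c / 4 ^ i) % 4` are in the image -/
theorem chk_pr_surj : ((List.range 256).all fun c =>
    ((List.range 4).any fun i => (List.range 4).any fun j =>
      !(Nat.beq i j) && Nat.beq ((c >>> (2 * i)) % 4) ((c >>> (2 * j)) % 4)) ||
    ((List.range 48).any fun a => (List.range 4).all fun i =>
      Nat.beq (prN a i) ((c >>> (2 * i)) % 4))) = true := by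
  decide +kernel

theorem chk_det : ((List.range 48).all fun a => (List.range 48).all fun b =>
    Nat.beq (detN (mulN a b)) ((detN a + detN b) % 2)) = true := by decide +kernel

theorem chk_z : ((List.range 48).all fun a => Nat.beq (mulN a 1) (mulN 1 a)) = true := by
  decide +kernel

theorem chk_ord : ((List.range 48).all fun a => Nat.beq (detN a) 0 ||
    (Nat.beq (mulN a a) 0 || Nat.beq (mulN (mulN a a) (mulN a a)) 1)) = true := by
  decide +kernel

theorem chk_two : ((List.range 48).all fun a => (List.range 48).all fun b =>
    (Nat.beq (detN a) 0 || !(Nat.beq (mulN a a) 0)) ||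
      (!(Nat.beq (mulN a b) (mulN b a)) || !(Nat.beq (detN b) 0)) ||
      (Nat.beq b 0 || Nat.beq b 1)) = true := by decide +kernel

theorem chk_eight : ((List.range 48).all fun a => (List.range 48).all fun b =>
    (!(Nat.beq (mulN (mulN a a) (mulN a a)) 1)) ||
      (!(Nat.beq (mulN a b) (mulN b a)) || !(Nat.beq (detN b) 0)) ||
      ((Nat.beq b 0 || Nat.beq b 1) ||
        (Nat.beq b (mulN a a) || Nat.beq b (mulN (mulN a a) 1)))) = true := by decide +kernel

theorem chk_four : ((List.range 48).all fun a =>
    (Nat.beq (mulN (mulN a a) (mulN a a)) 1 && (Nat.beq (detN a) 1 &&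
      (!(Nat.beq (mulN a a) 0) && !(Nat.beq (mulN a a) 1)))) ||
    (!(Nat.beq (mulN (mulN a a) (mulN a a)) 1) &&
      (!(Nat.beq (mulN (mulN a a) (mulN a a)) 0) ||
        (Nat.beq (mulN a a) 0 || Nat.beq (mulN a a) 1)))) = true := by decide +kernel

/-- exactly one of the two lifts is in the class -/
theorem chk_class : ((List.range 48).all fun a =>
    !(Nat.beq (mulN (mulN a a) (mulN a a)) 1) ||
      Nat.beq (cN a + cN (mulN a 1)) 1) = true := by decide +kernel

theorem chk_class_order : ((List.range 48).all fun a =>
    Nat.beq (cN a) 0 || Nat.beq (mulN (mulN a a) (mulN a a)) 1) = true := by decide +kernel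

theorem chk_cj : ((List.range 48).all fun a => (List.range 48).all fun b =>
    Nat.beq (cN (mulN (mulN a b) (invN a))) (cN b)) = true := by decide +kernel

theorem chk_exp : ((List.range 48).all fun a =>
    Nat.beq (mulN (mulN (mulN (mulN (mulN a a) (mulN a a)) (mulN (mulN a a) (mulN a a)))
      (mulN (mulN (mulN a a) (mulN a a)) (mulN (mulN a a) (mulN a a))))
      (mulN (mulN (mulN a a) (mulN a a)) (mulN (mulN a a) (mulN a a)))) 0) = true := by
  decide +kernel

theorem all_range {n : ℕ} {p : ℕ → Bool} (h : (List.range n).all p = true) {a : ℕ} (ha : a < n) :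
    p a = true := List.all_eq_true.1 h a (List.mem_range.2 ha)

theorem beq_eq {a b : ℕ} (h : Nat.beq a b = true) : a = b := Nat.eq_of_beq_eq_true h

theorem beq_ne {a b : ℕ} (h : (!(Nat.beq a b)) = true) : a ≠ b := by
  rintro rfl
  rw [Nat.beq_refl] at h
  exact absurd h (by decide)

theorem blt_lt {a b : ℕ} (h : Nat.blt a b = true) : a < b := by
  simpa [Nat.blt_eq] using h

theorem mulN_lt {a b : ℕ} (ha : a < 48) (hb : b < 48) : mulN a b < 48 :=
  blt_lt (all_range (all_range chk_mul_lt ha) hb)

theorem invN_lt {a : ℕ} (ha : a < 48) : invN a < 48 := by
  have h := all_range chk_inv ha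
  rw [Bool.and_eq_true] at h
  exact blt_lt h.1

theorem actN_lt {a i : ℕ} (ha : a < 48) (hi : i < 8) : actN a i < 8 :=
  blt_lt (all_range (all_range chk_act_lt ha) hi)

theorem act_mul {a b i : ℕ} (ha : a < 48) (hb : b < 48) (hi : i < 8) :
    actN (mulN a b) i = actN a (actN b i) :=
  beq_eq (all_range (all_range (all_range chk_act ha) hb) hi)

theorem act_inj {a b : ℕ} (ha : a < 48) (hb : b < 48) (h : ∀ i < 8, actN a i = actN b i) :
    a = b := by
  have h1 := all_range (all_range chk_inj ha) hb
  rw [Bool.or_eq_true] at h1
  rcases h1 with h1 | h1
  · exact beq_eq h1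
  · exfalso
    have h2 : ((List.range 8).all fun i => Nat.beq (actN a i) (actN b i)) = true := by
      rw [List.all_eq_true]
      intro i hi
      rw [h i (List.mem_range.1 hi)]
      exact Nat.beq_refl _
    rw [h2] at h1
    exact absurd h1 (by decide)

theorem mulN_assoc {a b c : ℕ} (ha : a < 48) (hb : b < 48) (hc : c < 48) :
    mulN (mulN a b) c = mulN a (mulN b c) := by
  apply act_inj (mulN_lt (mulN_lt ha hb) hc) (mulN_lt ha (mulN_lt hb hc))
  intro i hi
  rw [act_mul (mulN_lt ha hb) hc hi, act_mul ha hb (actN_lt hc hi), act_mul ha (mulN_lt hb hc) hi,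
    act_mul hb hc hi]

/-- The group `GL(2,3)`. -/
structure GLTwoThree where
  val : ℕ
  lt : val < 48

namespace GLTwoThree

theorem ext' {a b : GLTwoThree} (h : a.val = b.val) : a = b := by
  cases a; cases b; cases h; rfl

instance : Mul GLTwoThree := ⟨fun a b => ⟨mulN a.val b.val, mulN_lt a.lt b.lt⟩⟩
instance : One GLTwoThree := ⟨⟨0, by decide⟩⟩
instance : Inv GLTwoThree := ⟨fun a => ⟨invN a.val, invN_lt a.lt⟩⟩

theorem val_mul (a b : GLTwoThree) : (a * b).val = mulN a.val b.val := rfl
theorem val_one : (1 : GLTwoThree).val = 0 := rfl
theorem val_inv (a : GLTwoThree) : (a⁻¹).val = invN a.val := rfl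

instance : Group GLTwoThree :=
  Group.ofLeftAxioms
    (fun a b c => ext' (mulN_assoc a.lt b.lt c.lt))
    (fun a => ext' (by
      have h := all_range chk_one a.lt
      rw [Bool.and_eq_true] at h
      exact beq_eq h.1))
    (fun a => ext' (by
      have h := all_range chk_inv a.lt
      rw [Bool.and_eq_true] at h
      exact beq_eq h.2))

instance : Finite GLTwoThree :=
  Finite.of_injective (fun a : GLTwoThree => (⟨a.val, a.lt⟩ : Fin 48)) (by
    intro a b h
    exact ext' (by simpa using h))

theorem prN_lt (a i : ℕ) : prN a i < 4 := Nat.mod_lt _ (by decide)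

theorem pr_mul {a b i : ℕ} (ha : a < 48) (hb : b < 48) (hi : i < 4) :
    prN (mulN a b) i = prN a (prN b i) :=
  beq_eq (all_range (all_range (all_range chk_pr ha) hb) hi)

theorem pr_zero {i : ℕ} (hi : i < 4) : prN 0 i = i := by
  have h := all_range chk_pr_one hi
  rw [Bool.and_eq_true] at h
  exact beq_eq h.1

theorem pr_unit {i : ℕ} (hi : i < 4) : prN 1 i = i := by
  have h := all_range chk_pr_one hi
  rw [Bool.and_eq_true] at h
  exact beq_eq h.2

/-- the map of the four lines -/
def prF (g : GLTwoThree) (i : Fin 4) : Fin 4 := ⟨prN g.val i, prN_lt _ _⟩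

theorem prF_mul (g h : GLTwoThree) (i : Fin 4) : prF (g * h) i = prF g (prF h i) :=
  Fin.ext (pr_mul g.lt h.lt i.2)

theorem prF_one (i : Fin 4) : prF 1 i = i := Fin.ext (pr_zero i.2)

/-- the map to the symmetric group of the four lines -/
def pr : GLTwoThree →* Equiv.Perm (Fin 4) where
  toFun g := {
    toFun := prF g
    invFun := prF g⁻¹
    left_inv := fun i => by rw [← prF_mul, inv_mul_cancel, prF_one]
    right_inv := fun i => by rw [← prF_mul, mul_inv_cancel, prF_one] }
  map_one' := by
    ext i
    exact congrArg Fin.val (prF_one i)
  map_mul' g h := by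
    ext i
    exact congrArg Fin.val (prF_mul g h i)

theorem pr_apply (g : GLTwoThree) (i : Fin 4) : ((pr g i : Fin 4) : ℕ) = prN g.val i := rfl

theorem det_mul {a b : ℕ} (ha : a < 48) (hb : b < 48) :
    detN (mulN a b) = (detN a + detN b) % 2 :=
  beq_eq (all_range (all_range chk_det ha) hb)

theorem detN_lt (a : ℕ) : detN a < 2 := Nat.mod_lt _ (by decide)

/-- the determinant -/
def det : GLTwoThree →* ℤˣ where
  toFun g := (-1 : ℤˣ) ^ detN g.val
  map_one' := by
    have : detN (1 : GLTwoThree).val = 0 := by rw [val_one]; decide +kernel
    rw [this, pow_zero]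
  map_mul' g h := by
    have h1 : detN (g * h).val = (detN g.val + detN h.val) % 2 := det_mul g.lt h.lt
    rw [h1, ← pow_add]
    conv_rhs => rw [← Nat.mod_add_div (detN g.val + detN h.val) 2, pow_add, pow_mul]
    simp

theorem det_eq_one {g : GLTwoThree} : det g = 1 ↔ detN g.val = 0 := by
  have h : det g = (-1 : ℤˣ) ^ detN g.val := rfl
  rw [h]
  have h1 := detN_lt g.val
  generalize detN g.val = d at h1
  interval_cases d
  · simp
  · simp

/-- minus the unit matrix -/
def z : GLTwoThree := ⟨1, by decide⟩

theorem val_z : z.val = 1 := rfl

theorem pow_two' (g : GLTwoThree) : (g ^ 2).val = mulN g.val g.val := by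
  rw [pow_two, val_mul]

theorem pow_four' (g : GLTwoThree) :
    (g ^ 4).val = mulN (mulN g.val g.val) (mulN g.val g.val) := by
  rw [show 4 = 2 + 2 by rfl, pow_add, pow_two, val_mul, val_mul]

theorem eq_iff {g h : GLTwoThree} : g = h ↔ g.val = h.val :=
  ⟨fun e => by rw [e], ext'⟩

theorem pr_z : pr z = 1 := by
  ext i
  rw [pr_apply]
  exact pr_unit i.2

theorem pr_inj (g h : GLTwoThree) (e : pr g = pr h) : h = g ∨ h = g * z := by
  have h1 := all_range (all_range chk_pr_inj g.lt) h.lt
  rw [Bool.or_eq_true, Bool.or_eq_true] at h1
  rcases h1 with (h1 | h1) | h1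
  · exact Or.inl (ext' (beq_eq h1))
  · exact Or.inr (ext' (beq_eq h1))
  · exfalso
    have h2 : ((List.range 4).all fun i => Nat.beq (prN g.val i) (prN h.val i)) = true := by
      rw [List.all_eq_true]
      intro i hi
      have h3 : pr g ⟨i, List.mem_range.1 hi⟩ = pr h ⟨i, List.mem_range.1 hi⟩ := by rw [e]
      have h4 : prN g.val i = prN h.val i := congrArg Fin.val h3
      rw [h4]
      exact Nat.beq_refl _
    rw [h2] at h1
    exact absurd h1 (by decide)

theorem pr_surj (y : Equiv.Perm (Fin 4)) : ∃ g, pr g = y := by
  have hn : ∃ n < 256, ∀ i : Fin 4, (n >>> (2 * (i : ℕ))) % 4 = (y i : ℕ) := by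
    refine ⟨(y 0 : ℕ) + 4 * (y 1 : ℕ) + 16 * (y 2 : ℕ) + 64 * (y 3 : ℕ), ?_, ?_⟩
    · have := (y 0).2
      have := (y 1).2
      have := (y 2).2
      have := (y 3).2
      omega
    · intro i
      have := (y 0).2
      have := (y 1).2
      have := (y 2).2
      have := (y 3).2
      rw [Nat.shiftRight_eq_div_pow]
      fin_cases i
      · simp
        omega
      · simp
        omega
      · simp
        omega
      · simp
        omega
  obtain ⟨n, hn1, hn2⟩ := hn
  have h1 := all_range chk_pr_surj hn1
  rw [Bool.or_eq_true] at h1
  rcases h1 with h1 | h1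
  · exfalso
    rw [List.any_eq_true] at h1
    obtain ⟨i, hi, h1⟩ := h1
    rw [List.any_eq_true] at h1
    obtain ⟨j, hj, h1⟩ := h1
    rw [Bool.and_eq_true] at h1
    have hi4 : i < 4 := List.mem_range.1 hi
    have hj4 : j < 4 := List.mem_range.1 hj
    have h2 := beq_eq h1.2
    have h3 := hn2 ⟨i, hi4⟩
    have h4 := hn2 ⟨j, hj4⟩
    simp only at h3 h4
    rw [h3, h4] at h2
    have h5 := y.injective (Fin.ext h2)
    exact beq_ne h1.1 (congrArg Fin.val h5)
  · rw [List.any_eq_true] at h1
    obtain ⟨a, ha, h1⟩ := h1
    refine ⟨⟨a, List.mem_range.1 ha⟩, ?_⟩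
    ext i
    rw [pr_apply, ← hn2 i]
    rw [List.all_eq_true] at h1
    exact beq_eq (h1 i (List.mem_range.2 i.2))

theorem pr_eq_one {g : GLTwoThree} : pr g = 1 ↔ g.val = 0 ∨ g.val = 1 := by
  constructor
  · intro h
    rcases pr_inj 1 g (by rw [map_one, h]) with h | h
    · left; rw [h, val_one]
    · right; rw [h, one_mul, val_z]
  · rintro (h | h)
    · have : g = 1 := ext' h
      rw [this, map_one]
    · have : g = z := ext' h
      rw [this, pr_z]

theorem is4_iff (g : GLTwoThree) : Vale.Agent.P258.R2.H863.Is4 (pr g) ↔ g ^ 4 = z := by
  unfold Vale.Agent.P258.R2.H863.Is4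
  rw [← map_pow, ← map_pow, Ne, pr_eq_one, pr_eq_one, pow_four', pow_two', eq_iff, pow_four',
    val_z]
  have h := all_range chk_four g.lt
  rw [Bool.or_eq_true, Bool.and_eq_true, Bool.and_eq_true, Bool.and_eq_true, Bool.and_eq_true,
    Bool.or_eq_true, Bool.or_eq_true] at h
  rcases h with ⟨h1, _, h2, h3⟩ | ⟨h1, h2⟩
  · exact ⟨fun _ => beq_eq h1, fun _ => ⟨Or.inr (beq_eq h1), by
      rintro (h4 | h4)
      · exact beq_ne h2 h4
      · exact beq_ne h3 h4⟩⟩
  · have h5 := beq_ne h1
    constructor
    · rintro ⟨h3 | h3, h4⟩
      · exfalso
        rcases h2 with h2 | h2 | h2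
        · exact beq_ne h2 h3
        · exact h4 (Or.inl (beq_eq h2))
        · exact h4 (Or.inr (beq_eq h2))
      · exact h3
    · intro h6
      exact absurd h6 h5

theorem cN_lt (a : ℕ) : cN a < 2 := Nat.mod_lt _ (by decide)

theorem class_of {g : GLTwoThree} (hg : g ^ 4 = z) : cN g.val + cN (g * z).val = 1 := by
  rw [eq_iff, pow_four', val_z] at hg
  have h := all_range chk_class g.lt
  rw [Bool.or_eq_true] at h
  rcases h with h | h
  · exact absurd hg (beq_ne h)
  · exact beq_eq h

theorem class_order {g : GLTwoThree} (hg : cN g.val = 1) : g ^ 4 = z := by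
  rw [eq_iff, pow_four', val_z]
  have h := all_range chk_class_order g.lt
  rw [Bool.or_eq_true] at h
  rcases h with h | h
  · have := beq_eq h
    omega
  · exact beq_eq h

theorem class_cj (g h : GLTwoThree) : cN (g * h * g⁻¹).val = cN h.val :=
  beq_eq (all_range (all_range chk_cj g.lt) h.lt)

theorem exists_lift (c : Equiv.Perm (Fin 4)) (hc : Vale.Agent.P258.R2.H863.Is4 c) :
    ∃ g : GLTwoThree, pr g = c ∧ cN g.val = 1 := by
  obtain ⟨g, rfl⟩ := pr_surj c
  have h1 := class_of ((is4_iff g).1 hc)
  by_cases h2 : cN g.val = 1
  · exact ⟨g, rfl, h2⟩
  · refine ⟨g * z, by rw [map_mul, pr_z, mul_one], ?_⟩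
    have := cN_lt g.val
    omega

theorem lift_unique {g h : GLTwoThree} (e : pr g = pr h) (hg : cN g.val = 1)
    (hh : cN h.val = 1) : g = h := by
  rcases pr_inj g h e with h1 | h1
  · exact h1.symm
  · exfalso
    have h2 := class_of (class_order hg)
    rw [← h1] at h2
    omega

open Classical in
/-- the lift of the 4-cycles -/
noncomputable def tau (c : Equiv.Perm (Fin 4)) : GLTwoThree :=
  if hc : Vale.Agent.P258.R2.H863.Is4 c then (exists_lift c hc).choose else 1

theorem pr_tau {c : Equiv.Perm (Fin 4)} (hc : Vale.Agent.P258.R2.H863.Is4 c) :
    pr (tau c) = c := by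
  rw [tau, dif_pos hc]
  exact (exists_lift c hc).choose_spec.1

theorem cN_tau {c : Equiv.Perm (Fin 4)} (hc : Vale.Agent.P258.R2.H863.Is4 c) :
    cN (tau c).val = 1 := by
  rw [tau, dif_pos hc]
  exact (exists_lift c hc).choose_spec.2

theorem is4_cj {c : Equiv.Perm (Fin 4)} (hc : Vale.Agent.P258.R2.H863.Is4 c)
    (y : Equiv.Perm (Fin 4)) : Vale.Agent.P258.R2.H863.Is4 (y * c * y⁻¹) := by
  obtain ⟨h1, h2⟩ := hc
  refine ⟨by rw [conj_pow, h1, mul_one, mul_inv_cancel], fun h3 => h2 ?_⟩
  rw [conj_pow, mul_inv_eq_one] at h3
  exact mul_left_cancel (h3.trans (mul_one y).symm)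

theorem tau_conj (g : GLTwoThree) (c : Equiv.Perm (Fin 4))
    (hc : Vale.Agent.P258.R2.H863.Is4 c) : g * tau c * g⁻¹ = tau (pr g * c * (pr g)⁻¹) := by
  have h1 := is4_cj hc (pr g)
  apply lift_unique
  · rw [pr_tau h1, map_mul, map_mul, map_inv, pr_tau hc]
  · rw [class_cj, cN_tau hc]
  · exact cN_tau h1

/-- The double cover. -/
noncomputable def cover : Vale.Agent.P258.R2.H863.Cover GLTwoThree where
  z := z
  det := det
  pr := pr
  τ := tau
  z_ne := by
    rw [Ne, eq_iff, val_z, val_one]
    decide
  z_comm := fun g => ext' (beq_eq (all_range chk_z g.lt))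
  z_sq := ext' (by rw [val_mul, val_z, val_one]; decide +kernel)
  pr_z := pr_z
  det_z := by rw [det_eq_one, val_z]; decide +kernel
  pr_inj := pr_inj
  pr_surj := pr_surj
  ord := by
    intro g hg
    rw [Ne, det_eq_one] at hg
    rw [eq_iff, eq_iff, pow_two', pow_four', val_one, val_z]
    have h := all_range chk_ord g.lt
    rw [Bool.or_eq_true, Bool.or_eq_true] at h
    rcases h with h | h | h
    · exact absurd (beq_eq h) hg
    · exact Or.inl (beq_eq h)
    · exact Or.inr (beq_eq h)
  cent_two := by
    intro g h hg h2 hc hd
    rw [Ne, det_eq_one] at hg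
    rw [det_eq_one] at hd
    rw [eq_iff, pow_two', val_one] at h2
    rw [eq_iff, val_mul, val_mul] at hc
    have h3 := all_range (all_range chk_two g.lt) h.lt
    rw [Bool.or_eq_true, Bool.or_eq_true, Bool.or_eq_true, Bool.or_eq_true,
      Bool.or_eq_true] at h3
    rcases h3 with ((h3 | h3) | h3 | h3) | h3 | h3
    · exact absurd (beq_eq h3) hg
    · exact absurd h2 (beq_ne h3)
    · exact absurd hc (beq_ne h3)
    · exact absurd hd (beq_ne h3)
    · exact Or.inl (ext' (beq_eq h3))
    · exact Or.inr (ext' (beq_eq h3))
  cent_eight := by
    intro g h h4 hc hd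
    rw [det_eq_one] at hd
    rw [eq_iff, pow_four', val_z] at h4
    rw [eq_iff, val_mul, val_mul] at hc
    have h3 := all_range (all_range chk_eight g.lt) h.lt
    rw [Bool.or_eq_true, Bool.or_eq_true, Bool.or_eq_true, Bool.or_eq_true,
      Bool.or_eq_true, Bool.or_eq_true] at h3
    rcases h3 with (h3 | h3 | h3) | (h3 | h3) | h3 | h3
    · exact absurd h4 (beq_ne h3)
    · exact absurd hc (beq_ne h3)
    · exact absurd hd (beq_ne h3)
    · exact Or.inl (ext' (beq_eq h3))
    · exact Or.inr (Or.inl (ext' (beq_eq h3)))
    · exact Or.inr (Or.inr (Or.inl (ext' (by rw [pow_two']; exact beq_eq h3))))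
    · exact Or.inr (Or.inr (Or.inr (ext' (by
        rw [val_mul, pow_two', val_z]; exact beq_eq h3))))
  four := fun g => (is4_iff g).symm
  det_of_four := by
    intro g hg
    rw [Ne, det_eq_one]
    rw [eq_iff, pow_four', val_z] at hg
    have h := all_range chk_four g.lt
    rw [Bool.or_eq_true, Bool.and_eq_true, Bool.and_eq_true, Bool.and_eq_true,
      Bool.and_eq_true] at h
    rcases h with ⟨_, h1, _⟩ | ⟨h1, _⟩
    · have := beq_eq h1
      omega
    · exact absurd hg (beq_ne h1)
  pr_τ := fun c hc => pr_tau hc
  τ_conj := tau_conj
  exp := by
    intro g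
    have h := beq_eq (all_range chk_exp g.lt)
    have h8 : (g ^ 8).val = mulN (mulN (mulN g.val g.val) (mulN g.val g.val))
        (mulN (mulN g.val g.val) (mulN g.val g.val)) := by
      rw [show 8 = 4 + 4 by rfl, pow_add, val_mul, pow_four']
    rw [show 24 = 8 + 8 + 8 by rfl, pow_add, pow_add, eq_iff, val_mul, val_mul, h8, val_one]
    exact h

end GLTwoThree

end Vale.Agent.P258.R2.H785

namespace Vale.Agent.P258.R2.H863

/-- Row A. -/
theorem exists_cover : SpecCover :=
  ⟨H785.GLTwoThree, inferInstance, inferInstance, ⟨H785.GLTwoThree.cover⟩⟩

end Vale.Agent.P258.R2.H863
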